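import Vale.Agent.P235.T.K1O10C
import Vale.Agent.P235.T.K1O10P1101111110000F0

namespace Vale.Agent.P235

set_option maxRecDepth 100000

namespace K1O10M1101111110000
theorem top : ∃ t, chkT (([0,0,0,0,-2,0,0,0,1,0] : Fm) :: ([0,0,0,0,0,0,0,0,-2,1] : Fm) :: ([0,0,0,-1,8,0,0,0,0,0] : Fm) :: ([0,0,0,-2,-2,0,0,1,2,0] : Fm) :: fsm (-1) ([0,0,0,-31,33,0,0,0,0,0] : Fm) :: fsm (-1) ([3,3,0,-4,-4,0,0,0,0,0] : Fm) :: fsm (-1) ([0,0,0,-1,0,0,0,1,0,0] : Fm) :: fsm (-1) ([0,0,-1,0,0,4,0,0,0,0] : Fm) :: fsm (-1) ([4,4,-1,0,0,0,0,0,0,0] : Fm) :: fsm (-1) ([0,0,0,-1,1,0,0,0,0,0] : Fm) :: ([0,0,0,0,0,0,0,-1,1,0] : Fm) :: fsm (-1) ([0,0,0,-2,0,0,0,1,0,0] : Fm) :: fsm (-1) ([0,0,0,-1,-1,0,0,-1,1,0] : Fm) :: K1O10.C0) t = true := ⟨_, (spl (spl (spl c0 (spl c1 (spl (spl c2 (spl c3 (spl c4 (spl c5 (spl c6 (spl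 c7 (spl c8 c9))))))) c10))) c11) c12)⟩
end K1O10M1101111110000
def K1O10P1101111110000 := K1O10M1101111110000.top

end Vale.Agent.P235
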